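import Vale.Agent.P120.Final

open MeasureTheory

theorem Vale.Agent.Results.P120.A_full.result (n d : ℕ) (hn : 1 ≤ n) (hnd : n < d)
    (μ : Measure (EuclideanSpace ℝ (Fin d))) [IsLocallyFiniteMeasure μ]
    (hAD : Vale.Agent.P120.Stmt.ADreg n μ) (hR : Vale.Agent.P120.Stmt.RieszBdd n μ) :
    Vale.Agent.P120.Stmt.UnifRect n μ :=
  Vale.Agent.P120.main hn hnd μ hAD hR
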